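import Vale.Agent.P317RAM.FinalThm

/-!
# P317: approximate counting of the common bases of two matroids
-/

namespace Vale.Agent.Results.P317.Fpras

open Vale.Agent.P317RAM

/-- There is a fully polynomial randomized approximation scheme for the number of common bases of
two arbitrary matroids given by independence oracles. -/
theorem result : ∃ prog : OCmd, IsFPRAS prog := fpras

end Vale.Agent.Results.P317.Fpras
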