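import Vale.Agent.P317.Count

namespace Vale.Agent.Results.P317.NearPaving

theorem result (n r t : ℕ) (M₁ M₂ : Matroid (Fin n))
    (hE₁ : M₁.E = Set.univ) (_hE₂ : M₂.E = Set.univ)
    (hr₁ : M₁.eRank = r) (hr₂ : M₂.eRank = r)
    (hgirth : ∀ S : Set (Fin n), S.ncard + t < r → M₁.Indep S)
    (hN : ∃ B : Set (Fin n), M₁.IsBase B ∧ M₂.IsBase B) :
    (∀ B : Set (Fin n), M₂.IsBase B →
      ∃ B' : Set (Fin n), (M₁.IsBase B' ∧ M₂.IsBase B') ∧ (B \ B').ncard ≤ 2 * t + 1) ∧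
    {B : Set (Fin n) | M₂.IsBase B}.ncard ≤
      (∑ j ∈ Finset.range (2 * t + 2), r.choose j * (n - r).choose j) *
        {B : Set (Fin n) | M₁.IsBase B ∧ M₂.IsBase B}.ncard :=
  Vale.Agent.P317.main M₁ M₂ hE₁ hr₁ hr₂ hgirth hN

end Vale.Agent.Results.P317.NearPaving
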